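import Vale.Agent.P331.H250.Ker

/-!
# Quenched lemmas: good sets, violations, transfer

`D` is an up-set of finite sets.  `mis D r S A` is the probability that `A ∪ N` misses `D`, where
`N` is the thinning of `S` with rate `r`.
-/

set_option autoImplicit false
set_option linter.unusedSectionVars false

namespace Vale.Agent.P331.H522

open Finset Vale.Agent.P331.H489 Vale.Agent.P331.H250
open scoped Classical

variable {E : Type*} [Fintype E] [DecidableEq E]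

/-- indicator -/
noncomputable def ind (P : Prop) : ℝ := if P then 1 else 0

theorem ind_true {P : Prop} (h : P) : ind P = 1 := if_pos h

theorem ind_false {P : Prop} (h : ¬ P) : ind P = 0 := if_neg h

theorem ind_nonneg (P : Prop) : 0 ≤ ind P := by
  unfold ind; split_ifs <;> norm_num

theorem ind_le_one (P : Prop) : ind P ≤ 1 := by
  unfold ind; split_ifs <;> norm_num

theorem ind_mono {P Q : Prop} (h : P → Q) : ind P ≤ ind Q := by
  by_cases hP : P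
  · rw [ind_true hP, ind_true (h hP)]
  · rw [ind_false hP]; exact ind_nonneg Q

theorem ind_or {P Q R : Prop} (h : P → Q ∨ R) : ind P ≤ ind Q + ind R := by
  by_cases hP : P
  · rcases h hP with h | h
    · rw [ind_true hP, ind_true h]; linarith [ind_nonneg R]
    · rw [ind_true hP, ind_true h]; linarith [ind_nonneg Q]
  · rw [ind_false hP]; linarith [ind_nonneg Q, ind_nonneg R]

theorem ind_not (P : Prop) : ind (¬ P) = 1 - ind P := by
  by_cases hP : P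
  · rw [ind_true hP, ind_false (not_not.2 hP)]; norm_num
  · rw [ind_false hP, ind_true hP]; norm_num

/-- indicator of the complement of `D` -/
noncomputable def nD (D : Finset E → Prop) (A : Finset E) : ℝ := if D A then 0 else 1

theorem nD_nonneg (D : Finset E → Prop) (A : Finset E) : 0 ≤ nD D A := by
  unfold nD; split_ifs <;> norm_num

theorem nD_le_one (D : Finset E → Prop) (A : Finset E) : nD D A ≤ 1 := by
  unfold nD; split_ifs <;> norm_num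

theorem nD_anti {D : Finset E → Prop} (hD : ∀ A B, A ⊆ B → D A → D B) {A B : Finset E}
    (h : A ⊆ B) : nD D B ≤ nD D A := by
  unfold nD
  by_cases h1 : D A
  · rw [if_pos h1, if_pos (hD _ _ h h1)]
  · rw [if_neg h1]; split_ifs <;> norm_num

/-- constant rate thinning -/
noncomputable def T (r : ℝ) (S : Finset E) (f : Finset E → ℝ) : ℝ := TH (fun _ => r) S f

/-- miss probability -/
noncomputable def mis (D : Finset E → Prop) (r : ℝ) (S A : Finset E) : ℝ :=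
  T r S (fun N => nD D (A ∪ N))

/-- probability of an event of a thinning -/
noncomputable def PT (r : ℝ) (S : Finset E) (P : Finset E → Prop) : ℝ :=
  T r S (fun G => ind (P G))

section basic

variable {r : ℝ} (h0 : 0 ≤ r) (h1 : r ≤ 1)
include h0 h1

theorem T_mono {S : Finset E} {f g : Finset E → ℝ} (hf : ∀ G, G ⊆ S → f G ≤ g G) :
    T r S f ≤ T r S g := TH_mono (fun _ => h0) (fun _ => h1) S hf

theorem T_nonneg {S : Finset E} {f : Finset E → ℝ} (hf : ∀ G, G ⊆ S → 0 ≤ f G) :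
    0 ≤ T r S f := TH_nonneg (fun _ => h0) (fun _ => h1) S hf

theorem T_le {S : Finset E} {f : Finset E → ℝ} {c : ℝ} (hf : ∀ G, G ⊆ S → f G ≤ c) :
    T r S f ≤ c := by
  have := T_mono h0 h1 (S := S) (f := f) (g := fun _ => c) hf
  rwa [show T r S (fun _ => c) = c from TH_const _ _ _] at this

theorem mis_nonneg {D : Finset E → Prop} {S A : Finset E} : 0 ≤ mis D r S A :=
  T_nonneg h0 h1 fun _ _ => nD_nonneg _ _

theorem mis_le_one {D : Finset E → Prop} {S A : Finset E} : mis D r S A ≤ 1 :=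
  T_le h0 h1 fun _ _ => nD_le_one _ _

theorem mis_anti {D : Finset E → Prop} (hD : ∀ A B, A ⊆ B → D A → D B) {S A B : Finset E}
    (h : A ⊆ B) : mis D r S B ≤ mis D r S A :=
  T_mono h0 h1 fun _ _ => nD_anti hD (union_subset_union_left h)

theorem PT_nonneg {S : Finset E} {P : Finset E → Prop} : 0 ≤ PT r S P :=
  T_nonneg h0 h1 fun _ _ => ind_nonneg _

theorem PT_le_one {S : Finset E} {P : Finset E → Prop} : PT r S P ≤ 1 :=
  T_le h0 h1 fun _ _ => ind_le_one _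

theorem PT_mono {S : Finset E} {P Q : Finset E → Prop} (h : ∀ G, G ⊆ S → P G → Q G) :
    PT r S P ≤ PT r S Q :=
  T_mono h0 h1 fun G hG => ind_mono (h G hG)

theorem PT_or {S : Finset E} {P Q R : Finset E → Prop} (h : ∀ G, G ⊆ S → P G → Q G ∨ R G) :
    PT r S P ≤ PT r S Q + PT r S R := by
  unfold PT T
  rw [← TH_add]
  exact T_mono h0 h1 fun G hG => ind_or (h G hG)

/-- Markov -/
theorem PT_markov {S : Finset E} {f : Finset E → ℝ} (hf : ∀ G, G ⊆ S → 0 ≤ f G) {t : ℝ}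
    {P : Finset E → Prop} (hP : ∀ G, G ⊆ S → P G → t ≤ f G) :
    t * PT r S P ≤ T r S f := by
  unfold PT T
  rw [← TH_mul]
  refine T_mono h0 h1 fun G hG => ?_
  by_cases h : P G
  · rw [ind_true h, mul_one]; exact hP G hG h
  · rw [ind_false h, mul_zero]; exact hf G hG

end basic

theorem PT_compl (r : ℝ) (S : Finset E) (P : Finset E → Prop) :
    PT r S (fun G => ¬ P G) = 1 - PT r S P := by
  unfold PT T
  simp only [ind_not]
  rw [TH_sub, TH_const]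

/-- `Y` is good for the pool `G` -/
def good (D : Finset E → Prop) (r : ℝ) (κ : ℕ) (ε : ℝ) (S G Y : Finset E) : Prop :=
  Y.card ≤ κ ∧ ((Y.card : ℝ) + 1) * mis D r (S \ G) (Y ∪ G) ≤ ε

/-- the probability that `X` has no good subset -/
noncomputable def fX (D : Finset E → Prop) (g r : ℝ) (κ : ℕ) (ε : ℝ) (S X : Finset E) : ℝ :=
  PT g S (fun G => ¬ ∃ Y ⊆ X, good D r κ ε S G Y)

/-- `X` is violated -/
def vio (D : Finset E → Prop) (g r : ℝ) (κ : ℕ) (ε : ℝ) (Z : ℕ) (τ : ℝ) (S X : Finset E) : Prop :=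
  X.card ≤ Z ∧ ((X.card : ℝ) + 1) * fX D g r κ ε S X ≤ τ

/-- `f` is pivotal at `A` -/
def piv (D : Finset E → Prop) (f : E) (A : Finset E) : Prop := D (insert f A) ∧ ¬ D A

/-- the context event: some small context makes `f` pivotal with probability at least `δ` -/
def Rel (D : Finset E → Prop) (r : ℝ) (κ : ℕ) (δ : ℝ) (S V G : Finset E) (f : E) : Prop :=
  ∃ Y ⊆ V.erase f, Y.card ≤ κ ∧ δ ≤ PT r (S \ G) (fun N => piv D f (Y ∪ G ∪ N))

theorem exists_min {P : Finset E → Prop} (U : Finset E) (hU : P U) :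
    ∃ X ⊆ U, P X ∧ ∀ X' ⊂ X, ¬ P X' := by
  induction U using Finset.strongInduction with
  | H U ih =>
    by_cases h : ∃ X' ⊂ U, P X'
    · obtain ⟨X', hX', hP⟩ := h
      obtain ⟨X, hX, h1, h2⟩ := ih X' hX' hP
      exact ⟨X, hX.trans hX'.subset, h1, h2⟩
    · push Not at h
      exact ⟨U, subset_rfl, hU, h⟩

/-- a good set of which no proper subset is good: all its elements are relevant -/
theorem min_good {D : Finset E → Prop} {r : ℝ} (h0 : 0 ≤ r) (h1 : r ≤ 1) {κ : ℕ} {ε : ℝ}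
    (hε : 0 ≤ ε) {S G Y : Finset E} (hY : good D r κ ε S G Y)
    {f : E} (hf : f ∈ Y) (hmin : ¬ good D r κ ε S G (Y.erase f)) :
    ε / ((κ : ℝ) + 1) ^ 2 ≤ PT r (S \ G) (fun N => piv D f (Y.erase f ∪ G ∪ N)) := by
  obtain ⟨hc, hm⟩ := hY
  have hce : (Y.erase f).card = Y.card - 1 := card_erase_of_mem hf
  have hpos : 1 ≤ Y.card := card_pos.2 ⟨f, hf⟩
  have hm2 : ε < (Y.card : ℝ) * mis D r (S \ G) (Y.erase f ∪ G) := by
    by_contra hcon
    push Not at hcon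
    refine hmin ⟨by omega, ?_⟩
    rw [hce]
    push_cast [Nat.cast_sub hpos]
    simpa using hcon
  have hp : (PT r (S \ G) (fun N => piv D f (Y.erase f ∪ G ∪ N))) =
      PT r (S \ G) (fun N => piv D f (Y.erase f ∪ G ∪ N)) := rfl
  have hd : mis D r (S \ G) (Y.erase f ∪ G) - mis D r (S \ G) (Y ∪ G) ≤
      PT r (S \ G) (fun N => piv D f (Y.erase f ∪ G ∪ N)) := by
    unfold mis T
    rw [← TH_sub]
    refine T_mono h0 h1 fun N _ => ?_
    have he : insert f (Y.erase f ∪ G ∪ N) = Y ∪ G ∪ N := by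
      rw [← insert_union, ← insert_union, insert_erase hf]
    have hpiv : piv D f (Y.erase f ∪ G ∪ N) ↔ D (Y ∪ G ∪ N) ∧ ¬ D (Y.erase f ∪ G ∪ N) := by
      unfold piv
      rw [he]
    by_cases ha : D (Y.erase f ∪ G ∪ N)
    · have e1 : nD D (Y.erase f ∪ G ∪ N) = 0 := if_pos ha
      have := nD_nonneg D (Y ∪ G ∪ N)
      have := ind_nonneg (piv D f (Y.erase f ∪ G ∪ N))
      show nD D (Y.erase f ∪ G ∪ N) - nD D (Y ∪ G ∪ N) ≤ ind (piv D f (Y.erase f ∪ G ∪ N))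
      linarith
    · have e1 : nD D (Y.erase f ∪ G ∪ N) = 1 := if_neg ha
      by_cases hb : D (Y ∪ G ∪ N)
      · have e2 : nD D (Y ∪ G ∪ N) = 0 := if_pos hb
        have e3 := ind_true (hpiv.2 ⟨hb, ha⟩)
        show nD D (Y.erase f ∪ G ∪ N) - nD D (Y ∪ G ∪ N) ≤ ind (piv D f (Y.erase f ∪ G ∪ N))
        linarith
      · have e2 : nD D (Y ∪ G ∪ N) = 1 := if_neg hb
        have := ind_nonneg (piv D f (Y.erase f ∪ G ∪ N))
        show nD D (Y.erase f ∪ G ∪ N) - nD D (Y ∪ G ∪ N) ≤ ind (piv D f (Y.erase f ∪ G ∪ N))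
        linarith
  have hY0 : (0 : ℝ) < Y.card := by exact_mod_cast hpos
  have hκ : (Y.card : ℝ) ≤ κ := by exact_mod_cast hc
  have hκ0 : (0 : ℝ) ≤ κ := Nat.cast_nonneg _
  have e1 : ε / Y.card < mis D r (S \ G) (Y.erase f ∪ G) := by
    rw [div_lt_iff₀ hY0]; linarith
  have e2 : mis D r (S \ G) (Y ∪ G) ≤ ε / ((Y.card : ℝ) + 1) := by
    rw [le_div_iff₀ (by linarith)]; linarith
  have e3 : ε / ((κ : ℝ) + 1) ^ 2 ≤ ε / Y.card - ε / ((Y.card : ℝ) + 1) := by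
    have e4 : ε / Y.card - ε / ((Y.card : ℝ) + 1) = ε / (Y.card * ((Y.card : ℝ) + 1)) := by
      field_simp
      ring
    rw [e4]
    refine div_le_div_of_nonneg_left hε (by positivity) ?_
    nlinarith
  linarith

/-- a good subset of `X` but none of `X''`: some element of `X \ X''` is relevant -/
theorem rel_of_good {D : Finset E → Prop} {r : ℝ} (h0 : 0 ≤ r) (h1 : r ≤ 1) {κ : ℕ} {ε : ℝ}
    (hε : 0 ≤ ε) {S G V X X'' : Finset E} (hXV : X ⊆ V)
    (hg : ∃ Y ⊆ X, good D r κ ε S G Y) (hn : ¬ ∃ Y ⊆ X'', good D r κ ε S G Y) :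
    ∃ f ∈ X, f ∉ X'' ∧ Rel D r κ (ε / ((κ : ℝ) + 1) ^ 2) S V G f := by
  obtain ⟨Y₀, hY₀, hgY₀⟩ := hg
  obtain ⟨Y, hY, h2, h3⟩ := exists_min (P := good D r κ ε S G) Y₀ hgY₀
  have hYX : Y ⊆ X := hY.trans hY₀
  have hne : ¬ Y ⊆ X'' := fun h => hn ⟨Y, h, h2⟩
  rw [Finset.not_subset] at hne
  obtain ⟨f, hfY, hfX⟩ := hne
  refine ⟨f, hYX hfY, hfX, Y.erase f, ?_, ?_, ?_⟩
  · exact erase_subset_erase f (hYX.trans hXV)
  · exact (card_le_card (erase_subset f Y)).trans h2.1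
  · exact min_good h0 h1 hε h2 hfY (h3 _ (erase_ssubset hfY))

/-- the family used on the rest `R` after removing the pool `G₂` -/
def Fam (D : Finset E → Prop) (c1 c2 : ℝ) (κ : ℕ) (ξ a : ℝ) (R A : Finset E) : Prop :=
  PT c1 R (fun G => ¬ ∃ Y ⊆ A, Y.card ≤ κ ∧ mis D c2 (R \ G) (Y ∪ G) ≤ ξ) ≤ a

theorem Fam_mono {D : Finset E → Prop} {c1 c2 : ℝ} (h0 : 0 ≤ c1) (h1 : c1 ≤ 1) {κ : ℕ} {ξ a : ℝ}
    {R A B : Finset E} (h : A ⊆ B) (hA : Fam D c1 c2 κ ξ a R A) : Fam D c1 c2 κ ξ a R B := by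
  refine le_trans (PT_mono h0 h1 fun G _ hG => ?_) hA
  rintro ⟨Y, hY, hY2⟩
  exact hG ⟨Y, hY.trans h, hY2⟩

/-- **(a) transfer.** -/
theorem transfer {D : Finset E → Prop} {g r c1 c2 : ℝ} (hg0 : 0 ≤ g) (hg1 : g ≤ 1)
    (hc0 : 0 ≤ c1) (hc1 : c1 ≤ 1) (hd0 : 0 ≤ c2) (hd1 : c2 ≤ 1)
    (e1 : (1 - g) * c1 = g) (e2 : (1 - c1) * c2 = r)
    {κ : ℕ} {ε ξ τ a : ℝ} (hε : 0 ≤ ε) (hξ : 0 < ξ)
    {S X : Finset E} (hf : fX D g r κ ε S X ≤ τ) :
    a * PT g S (fun G₂ => ¬ Fam D c1 c2 κ ξ a (S \ G₂) X) ≤ τ + ε / ξ := by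
  have s1 : a * PT g S (fun G₂ => ¬ Fam D c1 c2 κ ξ a (S \ G₂) X) ≤
      T g S (fun G₂ => PT c1 (S \ G₂) (fun G => ¬ ∃ Y ⊆ X, Y.card ≤ κ ∧
        mis D c2 ((S \ G₂) \ G) (Y ∪ G) ≤ ξ)) := by
    refine PT_markov hg0 hg1 (fun G _ => PT_nonneg hc0 hc1) fun G _ hG => ?_
    unfold Fam at hG
    exact (not_le.1 hG).le
  have s2 : T g S (fun G₂ => PT c1 (S \ G₂) (fun G => ¬ ∃ Y ⊆ X, Y.card ≤ κ ∧
        mis D c2 ((S \ G₂) \ G) (Y ∪ G) ≤ ξ)) =
      T g S (fun G => PT c1 (S \ G) (fun G₂ => ¬ ∃ Y ⊆ X, Y.card ≤ κ ∧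
        mis D c2 ((S \ G) \ G₂) (Y ∪ G) ≤ ξ)) := by
    have := TH_TH_swap (fun _ => g) (fun _ => c1) (fun _ => g) (fun _ => c1) S
      (fun _ _ => e1) (fun _ _ => e1) (fun G₂ G => ind (¬ ∃ Y ⊆ X, Y.card ≤ κ ∧
        mis D c2 ((S \ G₂) \ G) (Y ∪ G) ≤ ξ))
    unfold PT T
    refine this.trans ?_
    congr 1
    funext G
    congr 1
    funext G₂
    rw [sdiff_sdiff_comm]
  rw [s2] at s1
  refine s1.trans ?_
  have s3 : ∀ G, G ⊆ S → PT c1 (S \ G) (fun G₂ => ¬ ∃ Y ⊆ X, Y.card ≤ κ ∧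
        mis D c2 ((S \ G) \ G₂) (Y ∪ G) ≤ ξ) ≤
      ind (¬ ∃ Y ⊆ X, good D r κ ε S G Y) + ε / ξ := by
    intro G _
    by_cases h : ∃ Y ⊆ X, good D r κ ε S G Y
    · rw [ind_false (not_not.2 h), zero_add]
      obtain ⟨Y, hYX, hc, hm⟩ := h
      rw [le_div_iff₀ hξ, mul_comm]
      have s4 : ξ * PT c1 (S \ G) (fun G₂ => ¬ ∃ Y ⊆ X, Y.card ≤ κ ∧
          mis D c2 ((S \ G) \ G₂) (Y ∪ G) ≤ ξ) ≤
          T c1 (S \ G) (fun G₂ => mis D c2 ((S \ G) \ G₂) (Y ∪ G)) := by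
        refine PT_markov hc0 hc1 (fun _ _ => mis_nonneg hd0 hd1) fun G₂ _ hG₂ => ?_
        by_contra hcon
        push Not at hcon
        exact hG₂ ⟨Y, hYX, hc, hcon.le⟩
      have s5 : T c1 (S \ G) (fun G₂ => mis D c2 ((S \ G) \ G₂) (Y ∪ G)) =
          mis D r (S \ G) (Y ∪ G) :=
        TH_TH_snd (fun _ => c1) (fun _ => c2) (fun _ => r) (S \ G) (fun _ _ => e2)
          (fun N => nD D (Y ∪ G ∪ N))
      rw [s5] at s4
      refine s4.trans ?_
      have hr0 : 0 ≤ r := by rw [← e2]; exact mul_nonneg (by linarith) hd0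
      have hr1 : r ≤ 1 := by rw [← e2]; nlinarith
      have hmm := mis_nonneg hr0 hr1 (D := D) (S := S \ G) (A := Y ∪ G)
      have hcc : (0 : ℝ) ≤ Y.card := Nat.cast_nonneg _
      nlinarith
    · rw [ind_true h]
      have : PT c1 (S \ G) (fun G₂ => ¬ ∃ Y ⊆ X, Y.card ≤ κ ∧
          mis D c2 ((S \ G) \ G₂) (Y ∪ G) ≤ ξ) ≤ 1 := PT_le_one hc0 hc1
      have : 0 ≤ ε / ξ := div_nonneg hε hξ.le
      linarith
  refine (T_mono hg0 hg1 s3).trans ?_
  have s6 : T g S (fun G => ind (¬ ∃ Y ⊆ X, good D r κ ε S G Y) + ε / ξ) =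
      fX D g r κ ε S X + ε / ξ := by
    unfold fX PT T
    rw [TH_add, TH_const]
  rw [s6]
  linarith

/-- **(d)** For a fixed rest `R`: the average over the pool. -/
theorem pool {D : Finset E → Prop} {r c1 c2 c3 : ℝ} (hc0 : 0 ≤ c1) (hc1 : c1 ≤ 1)
    (h30 : 0 ≤ c3) (h31 : c3 ≤ 1) (e3 : c1 + (1 - c1) * c3 = r)
    {κ : ℕ} {ξ a : ℝ} (ha : 0 ≤ a) {R X₂ : Finset E}
    (hF : Fam D c1 c2 κ ξ a R X₂) (hbad : 3 * a ≤ mis D r R X₂) :
    a ≤ PT c1 R (fun G => (∃ Y ⊆ X₂, Y.card ≤ κ ∧ mis D c2 (R \ G) (Y ∪ G) ≤ ξ) ∧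
      a ≤ mis D c3 (R \ G) (X₂ ∪ G)) := by
  have s1 : mis D r R X₂ = T c1 R (fun G => mis D c3 (R \ G) (X₂ ∪ G)) := by
    have := TH_TH_union (fun _ => c1) (fun _ => c3) (fun _ => r) R (fun _ _ => e3)
      (fun N => nD D (X₂ ∪ N))
    unfold mis T
    rw [← this]
    congr 1
    funext G
    congr 1
    funext N
    rw [union_assoc]
  have s2 : ∀ G, G ⊆ R → mis D c3 (R \ G) (X₂ ∪ G) ≤
      ind (¬ ∃ Y ⊆ X₂, Y.card ≤ κ ∧ mis D c2 (R \ G) (Y ∪ G) ≤ ξ) +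
      (ind ((∃ Y ⊆ X₂, Y.card ≤ κ ∧ mis D c2 (R \ G) (Y ∪ G) ≤ ξ) ∧
        a ≤ mis D c3 (R \ G) (X₂ ∪ G)) + a) := by
    intro G _
    have hm1 : mis D c3 (R \ G) (X₂ ∪ G) ≤ 1 := mis_le_one h30 h31
    by_cases h : ∃ Y ⊆ X₂, Y.card ≤ κ ∧ mis D c2 (R \ G) (Y ∪ G) ≤ ξ
    · by_cases h' : a ≤ mis D c3 (R \ G) (X₂ ∪ G)
      · rw [ind_false (not_not.2 h), ind_true ⟨h, h'⟩]; linarith
      · rw [ind_false (not_not.2 h), ind_false (fun hh => h' hh.2)]
        push Not at h'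
        linarith
    · rw [ind_true h, ind_false (fun hh => h hh.1)]; linarith
  have s3 := T_mono hc0 hc1 s2
  rw [← s1] at s3
  unfold T at s3
  rw [TH_add, TH_add, TH_const] at s3
  unfold Fam PT T at hF
  unfold PT T
  linarith

end Vale.Agent.P331.H522
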