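import Vale.Agent.P331.H522.L1
import Vale.Agent.P331.H379.JLabel

/-!
# Lemma L: the luck event, all numbers are parameters
-/

set_option autoImplicit false
set_option linter.unusedSectionVars false

namespace Vale.Agent.P331.H522

open Finset Vale.Agent.P331.H489 Vale.Agent.P331.H250
open Vale.Agent.P331.H379 (lab mem_lab flip Sim jstar_label')
open scoped Classical

variable {E : Type*} [Fintype E] [DecidableEq E]

/-- the luck event between two levels -/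
def Luck (D : Finset E → Prop) (g r : ℝ) (κ : ℕ) (ε : ℝ) (Z : ℕ) (τ : ℝ) (κ' : ℕ) (ε' : ℝ)
    (Z' : ℕ) (τ' : ℝ) (V S : Finset E) : Prop :=
  ∃ X ⊆ V, vio D g r κ ε Z τ S X ∧ ∀ X' ⊆ X, ¬ vio D g r κ' ε' Z' τ' S X'

theorem EX_ind_le {L : Type*} [Fintype L] [DecidableEq L] {w : E → L → ℝ}
    (hw : ∀ e l, 0 ≤ w e l) (h1 : ∀ e, ∑ l, w e l = 1) (P : (E → L) → Prop) :
    EX w (fun ω => ind (P ω)) ≤ 1 :=
  (EX_mono hw fun ω => ind_le_one (P ω)).trans (le_of_eq (EX_one w h1 1))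

theorem bw2_nonneg {a b : E → ℝ} (ha : ∀ e, 0 ≤ a e) (hb : ∀ e, 0 ≤ b e)
    (hab : ∀ e, a e + b e ≤ 1) (S : Finset E) (e : E) (l : Option Bool) : 0 ≤ bw2 a b S e l := by
  unfold bw2
  have := ha e
  have := hb e
  have := hab e
  split_ifs <;> linarith

theorem bw2_sum (a b : E → ℝ) (S : Finset E) (e : E) : ∑ l, bw2 a b S e l = 1 := by
  rw [Fintype.sum_option, Fintype.sum_bool]
  by_cases h : e ∈ S
  · simp [bw2, h]
  · simp [bw2, h]

/-- the rest of `W` in a labelling by `Option Bool` -/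
def rst (W : Finset E) (ω : E → Option Bool) : Finset E :=
  (W \ lab (some true) ω) \ lab (some false) ω

theorem rst_sim {W : Finset E} {ω ω' : E → Option Bool}
    (h : Sim (some true) (some false) ω ω') : rst W ω = rst W ω' := by
  ext e
  simp only [rst, mem_sdiff, mem_lab]
  rcases h e with h1 | ⟨h1, h2⟩
  · rw [h1]
  · rcases h1 with h1 | h1 <;> rcases h2 with h2 | h2 <;> simp [h1, h2]

/-- **Lemma L** with free parameters. -/
theorem lemL {D : Finset E → Prop} (W : Finset E)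
    {p g r c1 c2 c3 lam0 : ℝ} (hp0 : 0 ≤ p) (hp1 : p ≤ 1) (hg0 : 0 ≤ g) (hg1 : g ≤ 1)
    (hc10 : 0 ≤ c1) (hc11 : c1 ≤ 1) (hc20 : 0 ≤ c2) (hc21 : c2 ≤ 1) (hc30 : 0 ≤ c3)
    (hc31 : c3 ≤ 1) (e1 : (1 - g) * c1 = g) (e2 : (1 - c1) * c2 = r)
    (e3 : c1 + (1 - c1) * c3 = r) (hlam : 1 ≤ lam0) (hlp : lam0 * p ≤ (1 - p) * g)
    {κ : ℕ} {ε : ℝ} {Z : ℕ} {τ : ℝ} {κ' : ℕ} {ε' : ℝ} {Z' : ℕ} {τ' : ℝ}
    (hε : 0 ≤ ε) (hε' : 0 ≤ ε') (hτ' : 0 ≤ τ') {ξ a : ℝ} (hξ : 0 < ξ) (ha : 0 < a)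
    (ha3 : ((κ' : ℝ) + 1) * (3 * a) ≤ ε')
    {Est : Finset E} (hEst : Est.card ≤ Z') {CQ CR : ℝ}
    (hQ : EX (bw2 (fun _ => p) (fun _ => (1 - p) * g) W) (fun ω => PT c1 (rst W ω) (fun G =>
      (∃ Y ⊆ lab (some false) ω, Y.card ≤ κ ∧ mis D c2 (rst W ω \ G) (Y ∪ G) ≤ ξ) ∧
        a ≤ mis D c3 (rst W ω \ G) (lab (some false) ω ∪ G))) ≤ CQ)
    (hR : T p W (fun V => PT g (W \ V) (fun G => ∃ f ∈ V, f ∉ Est ∧
      Rel D r κ' (ε' / ((κ' : ℝ) + 1) ^ 2) (W \ V) V G f)) ≤ CR) :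
    (τ' / ((Z' : ℝ) + 1) - (τ + ε / ξ) / a) *
      PT p W (fun V => Luck D g r κ ε Z τ κ' ε' Z' τ' V (W \ V)) ≤
      1 / lam0 ^ (κ' + 1) + CQ / a + CR := by
  have hr0 : 0 ≤ r := by rw [← e2]; exact mul_nonneg (by linarith) hc20
  have hr1 : r ≤ 1 := by rw [← e2]; nlinarith
  -- the chosen set
  have hch : ∀ V S : Finset E, ∃ X, Luck D g r κ ε Z τ κ' ε' Z' τ' V S →
      X ⊆ V ∧ vio D g r κ ε Z τ S X ∧ ∀ X' ⊆ X, ¬ vio D g r κ' ε' Z' τ' S X' := by
    intro V S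
    by_cases h : Luck D g r κ ε Z τ κ' ε' Z' τ' V S
    · obtain ⟨X, hX, h1, h2⟩ := h
      exact ⟨X, fun _ => ⟨hX, h1, h2⟩⟩
    · exact ⟨∅, fun h' => absurd h' h⟩
  choose X hX using hch
  -- the bad event for the pair (V, G₂)
  obtain ⟨Ev, hEv⟩ : ∃ Ev : Finset E → Finset E → Prop, ∀ V G₂, Ev V G₂ ↔
    (Luck D g r κ ε Z τ κ' ε' Z' τ' V (W \ V) ∧
      Fam D c1 c2 κ ξ a ((W \ V) \ G₂) (X V (W \ V)) ∧
      ¬ ∃ Y ⊆ X V (W \ V), good D r κ' ε' (W \ V) G₂ Y) := ⟨_, fun _ _ => Iff.rfl⟩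
  -- pointwise inequality in V
  have hpt : ∀ V, V ⊆ W → (τ' / ((Z' : ℝ) + 1) - (τ + ε / ξ) / a) *
      ind (Luck D g r κ ε Z τ κ' ε' Z' τ' V (W \ V)) ≤
      PT g (W \ V) (fun G₂ => Ev V G₂) + PT g (W \ V) (fun G => ∃ f ∈ V, f ∉ Est ∧
      Rel D r κ' (ε' / ((κ' : ℝ) + 1) ^ 2) (W \ V) V G f) := by
    intro V _
    have n1 : 0 ≤ PT g (W \ V) (fun G₂ => Ev V G₂) := PT_nonneg hg0 hg1
    have n2 : 0 ≤ PT g (W \ V) (fun G => ∃ f ∈ V, f ∉ Est ∧
      Rel D r κ' (ε' / ((κ' : ℝ) + 1) ^ 2) (W \ V) V G f) := PT_nonneg hg0 hg1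
    by_cases hL : Luck D g r κ ε Z τ κ' ε' Z' τ' V (W \ V)
    · rw [ind_true hL, mul_one]
      obtain ⟨hXV, hvio, hno⟩ := hX V (W \ V) hL
      set S := W \ V with hS
      set K := X V S with hK
      have h1 := hno (K ∩ Est) inter_subset_left
      have hcard : (K ∩ Est).card ≤ Z' := (card_le_card inter_subset_right).trans hEst
      have h2 : τ' / ((Z' : ℝ) + 1) ≤ fX D g r κ' ε' S (K ∩ Est) := by
        have h3 : τ' < (((K ∩ Est).card : ℝ) + 1) * fX D g r κ' ε' S (K ∩ Est) := by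
          by_contra hcon
          exact h1 ⟨hcard, not_lt.1 hcon⟩
        have h4 : ((K ∩ Est).card : ℝ) ≤ Z' := by exact_mod_cast hcard
        have h5 : 0 ≤ fX D g r κ' ε' S (K ∩ Est) := PT_nonneg hg0 hg1
        rw [div_le_iff₀ (by positivity)]
        nlinarith
      have h3 : fX D g r κ' ε' S (K ∩ Est) ≤
          PT g S (fun G₂ => ¬ ∃ Y ⊆ K, good D r κ' ε' S G₂ Y) +
          PT g S (fun G => ∃ f ∈ V, f ∉ Est ∧
            Rel D r κ' (ε' / ((κ' : ℝ) + 1) ^ 2) S V G f) := by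
        refine PT_or hg0 hg1 fun G _ hG => ?_
        by_cases hgd : ∃ Y ⊆ K, good D r κ' ε' S G Y
        · right
          obtain ⟨f, hf1, hf2, hf3⟩ := rel_of_good hr0 hr1 hε' (V := V) hXV hgd hG
          refine ⟨f, hXV hf1, fun hfE => hf2 (mem_inter.2 ⟨hf1, hfE⟩), hf3⟩
        · exact Or.inl hgd
      have h4 : PT g S (fun G₂ => ¬ ∃ Y ⊆ K, good D r κ' ε' S G₂ Y) ≤
          PT g S (fun G₂ => ¬ Fam D c1 c2 κ ξ a (S \ G₂) K) + PT g S (fun G₂ => Ev V G₂) := by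
        refine PT_or hg0 hg1 fun G _ hG => ?_
        by_cases hF : Fam D c1 c2 κ ξ a (S \ G) K
        · exact Or.inr ((hEv V G).2 ⟨hL, hF, hG⟩)
        · exact Or.inl hF
      have h5 : PT g S (fun G₂ => ¬ Fam D c1 c2 κ ξ a (S \ G₂) K) ≤ (τ + ε / ξ) / a := by
        rw [le_div_iff₀ ha, mul_comm]
        refine transfer hg0 hg1 hc10 hc11 hc20 hc21 e1 e2 hε hξ ?_
        have h6 : 0 ≤ fX D g r κ ε S K := PT_nonneg hg0 hg1
        have h7 : (0 : ℝ) ≤ K.card := Nat.cast_nonneg _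
        have h8 := hvio.2
        nlinarith
      linarith
    · rw [ind_false hL, mul_zero]
      linarith
  have hmain := T_mono hp0 hp1 hpt
  have e4 : T p W (fun V => (τ' / ((Z' : ℝ) + 1) - (τ + ε / ξ) / a) *
      ind (Luck D g r κ ε Z τ κ' ε' Z' τ' V (W \ V))) =
      (τ' / ((Z' : ℝ) + 1) - (τ + ε / ξ) / a) *
      PT p W (fun V => Luck D g r κ ε Z τ κ' ε' Z' τ' V (W \ V)) := TH_mul _ _ _ _
  have e5 : T p W (fun V => PT g (W \ V) (fun G₂ => Ev V G₂) +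
      PT g (W \ V) (fun G => ∃ f ∈ V, f ∉ Est ∧
      Rel D r κ' (ε' / ((κ' : ℝ) + 1) ^ 2) (W \ V) V G f)) =
      T p W (fun V => PT g (W \ V) (fun G₂ => Ev V G₂)) +
      T p W (fun V => PT g (W \ V) (fun G => ∃ f ∈ V, f ∉ Est ∧
      Rel D r κ' (ε' / ((κ' : ℝ) + 1) ^ 2) (W \ V) V G f)) := TH_add _ _ _ _
  rw [e4, e5] at hmain
  refine hmain.trans ?_
  suffices hs : T p W (fun V => PT g (W \ V) (fun G₂ => Ev V G₂)) ≤
      1 / lam0 ^ (κ' + 1) + CQ / a by linarith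
  -- passage to labels
  set w := bw2 (fun _ : E => p) (fun _ => (1 - p) * g) W with hw
  have hw0 : ∀ e l, 0 ≤ w e l := bw2_nonneg (fun _ => hp0)
    (fun _ => mul_nonneg (by linarith) hg0) (fun _ => by nlinarith) W
  have hw1 : ∀ e, ∑ l, w e l = 1 := bw2_sum _ _ W
  have e6 : T p W (fun V => PT g (W \ V) (fun G₂ => Ev V G₂)) =
      EX w (fun ω => ind (Ev (lab (some true) ω) (lab (some false) ω))) :=
    TH_TH (fun _ => p) (fun _ => g) W (fun V G₂ => ind (Ev V G₂))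
  rw [e6]
  obtain ⟨U, hU1, hU2, hU3⟩ := jstar_label' (some true) (some false) (by simp) w hw0 lam0 hlam
    (by
      intro e
      rw [hw]
      by_cases he : e ∈ W
      · simpa [bw2, he] using hlp
      · simp [bw2, he])
    (fun ω A => Fam D c1 c2 κ ξ a (rst W ω) A)
    (fun ω A B hAB hA => Fam_mono hc10 hc11 hAB hA)
    (fun ω ω' h A hA => by rw [← rst_sim h]; exact hA)
    (fun ω => Ev (lab (some true) ω) (lab (some false) ω))
    (fun ω => X (lab (some true) ω) (W \ lab (some true) ω))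
    (fun ω hω => ⟨fun e he => mem_lab.1 ((hX _ _ ((hEv _ _).1 hω).1).1 he),
      ((hEv _ _).1 hω).2.1⟩)
  -- the two cases
  let ψ : (E → Option Bool) → ℝ := fun ω => ind (3 * a ≤ mis D r (rst W ω) (lab (some false) ω))
  have hψ : ∀ ω, 0 ≤ ψ ω := fun ω => ind_nonneg _
  have hcase : ∀ ω, ind (Ev (lab (some true) ω) (lab (some false) ω)) ≤
      (if Ev (lab (some true) ω) (lab (some false) ω) ∧ κ' + 1 ≤ (U ω).card then (1 : ℝ) else 0) +
      (if Ev (lab (some true) ω) (lab (some false) ω) then ψ (flip (some false) (U ω) ω)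
        else 0) := by
    intro ω
    by_cases hE : Ev (lab (some true) ω) (lab (some false) ω)
    · rw [ind_true hE, if_pos hE]
      have hψ1 := hψ (flip (some false) (U ω) ω)
      by_cases hc : κ' + 1 ≤ (U ω).card
      · rw [if_pos ⟨hE, hc⟩]; linarith
      · rw [if_neg (fun h => hc h.2), zero_add]
        obtain ⟨hUK, -⟩ := hU1 ω hE
        have hsim : Sim (some true) (some false) ω (flip (some false) (U ω) ω) :=
          H379.sim_flip fun e he => mem_lab.1 ((hX _ _ ((hEv _ _).1 hE).1).1 (hUK he))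
        have h1 : rst W (flip (some false) (U ω) ω) = rst W ω := (rst_sim hsim).symm
        have h2 : lab (some false) (flip (some false) (U ω) ω) = lab (some false) ω ∪ U ω :=
          H379.lab_flip
        show (1 : ℝ) ≤ ψ (flip (some false) (U ω) ω)
        simp only [ψ]
        rw [h1, h2, ind_true]
        by_contra hcon
        refine ((hEv _ _).1 hE).2.2 ⟨U ω, hUK, by omega, ?_⟩
        have h3 : mis D r ((W \ lab (some true) ω) \ lab (some false) ω)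
            (U ω ∪ lab (some false) ω) ≤ 3 * a := by
          rw [union_comm]
          exact (not_le.1 hcon).le
        have h4 : ((U ω).card : ℝ) ≤ κ' := by
          have : (U ω).card ≤ κ' := by omega
          exact_mod_cast this
        have h5 : 0 ≤ mis D r ((W \ lab (some true) ω) \ lab (some false) ω)
            (U ω ∪ lab (some false) ω) := mis_nonneg hr0 hr1
        have h6 : (0 : ℝ) ≤ (U ω).card := Nat.cast_nonneg _
        nlinarith
    · rw [ind_false hE, if_neg (fun h => hE h.1), if_neg hE, add_zero]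
  refine (EX_mono hw0 hcase).trans ?_
  rw [EX_add]
  refine add_le_add ?_ ?_
  · have h1 := hU3 (κ' + 1) hw1
    rw [le_div_iff₀ (by positivity), mul_comm]
    exact h1
  · refine (hU2 ψ hψ).trans ?_
    rw [le_div_iff₀ ha, mul_comm, ← EX_mul]
    refine le_trans (EX_mono hw0 fun ω => ?_) hQ
    by_cases hF : Fam D c1 c2 κ ξ a (rst W ω) (lab (some false) ω)
    · rw [if_pos hF]
      by_cases hb : 3 * a ≤ mis D r (rst W ω) (lab (some false) ω)
      · simp only [ψ]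
        rw [ind_true hb, mul_one]
        exact pool hc10 hc11 hc30 hc31 e3 ha.le hF hb
      · simp only [ψ]
        rw [ind_false hb, mul_zero]
        exact PT_nonneg hc10 hc11
    · rw [if_neg hF, mul_zero]
      exact PT_nonneg hc10 hc11

end Vale.Agent.P331.H522
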